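import Vale.Agent.P186.Cayley

/-!
# P186: the hyperbolicity constant can be normalised

Every word-hyperbolic group has a finite generating set (a large punctured ball) whose Cayley graph
satisfies Gromov's four-point inequality with additive constant `2` and has `4`-thin geodesic
triangles.  Hence residual finiteness of all word-hyperbolic groups is equivalent to the statement
that in every group with such a normalised finite generating set `T`, every nontrivial element
of `T` itself is missed by some subgroup of finite index.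
-/

namespace Vale.Agent.Results.P186.UniversalThinConstant

open SimpleGraph Vale.Agent.P186

universe u

theorem result :
    (∀ (G : Type u) [Group G] (S : Finset G) (δ r : ℕ), Subgroup.closure (S : Set G) = ⊤ →
        ThinTriangles (mulCayley (S : Set G)) δ → 6 * δ + 2 ≤ r →
        ∃ T : Finset G, (∀ g, g ∈ T ↔ g ≠ 1 ∧ (mulCayley (S : Set G)).dist 1 g ≤ r) ∧
          Subgroup.closure (T : Set G) = ⊤ ∧
          FourPoint (mulCayley (T : Set G)) 2 ∧ ThinTriangles (mulCayley (T : Set G)) 4) ∧
    ((∀ (G : Type u) [Group G], WordHyperbolic G → Group.ResiduallyFinite G) ↔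
      (∀ (G : Type u) [Group G] (T : Finset G), Subgroup.closure (T : Set G) = ⊤ →
        FourPoint (mulCayley (T : Set G)) 2 → ThinTriangles (mulCayley (T : Set G)) 4 →
        ∀ t ∈ T, t ≠ 1 → ∃ H : Subgroup G, H.FiniteIndex ∧ t ∉ H)) := by
  have main : ∀ (G : Type u) [Group G] (S : Finset G) (δ r : ℕ),
      Subgroup.closure (S : Set G) = ⊤ →
        ThinTriangles (mulCayley (S : Set G)) δ → 6 * δ + 2 ≤ r →
        ∃ T : Finset G, (∀ g, g ∈ T ↔ g ≠ 1 ∧ (mulCayley (S : Set G)).dist 1 g ≤ r) ∧
          Subgroup.closure (T : Set G) = ⊤ ∧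
          FourPoint (mulCayley (T : Set G)) 2 ∧ ThinTriangles (mulCayley (T : Set G)) 4 := by
    intro G _ S δ r hS hthin hr
    have hfin := ballSet_finite (S := (S : Set G)) S.finite_toSet hS r
    refine ⟨hfin.toFinset, ?_, ?_, ?_⟩
    · intro g
      rw [Set.Finite.mem_toFinset]
      rfl
    · rw [Set.Finite.coe_toFinset]
      exact ballSet_closure hS (by omega)
    · rw [Set.Finite.coe_toFinset]
      exact rescale_cayley hS hthin hr
  refine ⟨main, ?_, ?_⟩
  · intro h G _ T hT _ hthin t _ ht1
    have hRF : Group.ResiduallyFinite G := h G ⟨T, hT, 4, hthin⟩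
    exact Group.residuallyFinite_iff_exists_finiteIndex.1 hRF t ht1
  · intro h G _ hG
    obtain ⟨S, hS, δ, hthin⟩ := hG
    rw [Group.residuallyFinite_iff_exists_finiteIndex]
    intro g hg
    obtain ⟨T, hmem, hT, h4, hthin4⟩ :=
      main G S δ (max (6 * δ + 2) ((mulCayley (S : Set G)).dist 1 g)) hS hthin (le_max_left _ _)
    exact h G T hT h4 hthin4 g ((hmem g).2 ⟨hg, le_max_right _ _⟩) hg

end Vale.Agent.Results.P186.UniversalThinConstant
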